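import Vale.Agent.Lib.P205.T2.Assemble

open scoped ContDiff

/-- For every lattice `ℤ l + ℤ m` in the plane and every `C^∞` function `u` on the plane which is
periodic under the lattice, the metric `exp (2 u) (dx² + dy²)` on the torus `ℝ² / (ℤ l + ℤ m)`
admits a `C^∞` isometric immersion into Euclidean `ℝ⁴`: the map `F` is `C^∞` on `ℝ²`, invariant
under the two lattice translations, and its differential pulls the Euclidean inner product back to
the metric. -/
theorem Vale.Agent.Results.P205.AllTori.result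
    (l m : ℝ × ℝ) (hlm : l.1 * m.2 - l.2 * m.1 ≠ 0)
    (u : ℝ × ℝ → ℝ) (hu : ContDiff ℝ ∞ u)
    (hul : ∀ z, u (z + l) = u z) (hum : ∀ z, u (z + m) = u z) :
    ∃ F : ℝ × ℝ → EuclideanSpace ℝ (Fin 4), ContDiff ℝ ∞ F ∧
      (∀ z, F (z + l) = F z) ∧ (∀ z, F (z + m) = F z) ∧
      ∀ z v w : ℝ × ℝ, inner ℝ (fderiv ℝ F z v) (fderiv ℝ F z w)
        = Real.exp (2 * u z) * (v.1 * w.1 + v.2 * w.2) :=
  Vale.Agent.Lib.P205.T2.main_theorem hlm hu hul hum
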