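import Vale.Agent.Lib.P205.Main

open scoped ContDiff

/-- For all `L, c > 0`, every real `τ` and every smooth positive `L`-periodic function `f`, the
metric `dx² + f(x)² dy²` on the torus `ℝ² / ⟨(0, c), (L, τ)⟩` admits a `C^∞` isometric immersion
into Euclidean `ℝ⁴`: the map `F` is `C^∞` on `ℝ²`, invariant under the two lattice translations,
and its differential pulls the Euclidean inner product back to the metric. -/
theorem Vale.Agent.Results.P205.KillingTorus.result
    (L c τ : ℝ) (hL : 0 < L) (hc : 0 < c) (f : ℝ → ℝ) (hf : ContDiff ℝ ∞ f)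
    (hpos : ∀ x, 0 < f x) (hper : ∀ x, f (x + L) = f x) :
    ∃ F : ℝ × ℝ → EuclideanSpace ℝ (Fin 4), ContDiff ℝ ∞ F ∧
      (∀ x y, F (x, y + c) = F (x, y)) ∧
      (∀ x y, F (x + L, y + τ) = F (x, y)) ∧
      ∀ p u v : ℝ × ℝ, inner ℝ (fderiv ℝ F p u) (fderiv ℝ F p v)
        = u.1 * v.1 + f p.1 ^ 2 * (u.2 * v.2) :=
  Vale.Agent.Lib.P205.main_torus L c τ hL hc f hf hpos hper
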